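import Crest.Agent.R18.FD
import Crest.Agent.R18.Kum

/-! Row 18 block GEN: one character moved by conjugation. -/

set_option autoImplicit false
set_option linter.unusedSectionVars false
open scoped Pointwise NumberField
open IsDedekindDomain Crest.NumberTheoryR

namespace Crest.Agent.R18.GEN

variable {F E : Type*} [Field F] [NumberField F] [Field E] [Algebra F E] [IsGalois F E]

theorem padic_near (ℓ : ℕ) [Fact ℓ.Prime] (a : ℚ_[ℓ]) (n : ℕ) :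
    ∃ r : ℚ, ‖a - r‖ = (ℓ : ℝ) ^ (-n : ℤ) := by
  have hℓ : (0 : ℝ) < ℓ := by exact_mod_cast (Fact.out : ℓ.Prime).pos
  obtain ⟨r, hr⟩ := Padic.rat_dense ℓ (a - (ℓ : ℚ_[ℓ]) ^ n) (ε := (ℓ : ℝ) ^ (-n : ℤ)) (by positivity)
  refine ⟨r, ?_⟩
  have h1 : a - r = (a - (ℓ : ℚ_[ℓ]) ^ n - r) + (ℓ : ℚ_[ℓ]) ^ n := by ring
  rw [h1, Padic.add_eq_max_of_ne (by rw [Padic.norm_p_pow]; exact hr.ne), Padic.norm_p_pow,
    max_eq_right hr.le]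

theorem padic_sep (ℓ : ℕ) [Fact ℓ.Prime] {a b : ℚ_[ℓ]} (hab : a ≠ b) :
    ∃ r₁ r₂ : ℚ, ‖(a - r₂) / (a - r₁)‖ = (ℓ : ℝ)⁻¹ ∧ ‖(b - r₂) / (b - r₁)‖ = 1 := by
  have hℓ1 : (1 : ℝ) < ℓ := by exact_mod_cast (Fact.out : ℓ.Prime).one_lt
  have hℓ : (0 : ℝ) < ℓ := by linarith
  have hd : 0 < ‖b - a‖ := norm_pos_iff.2 (sub_ne_zero.2 hab.symm)
  obtain ⟨n, hn⟩ := exists_pow_lt_of_lt_one hd (inv_lt_one_of_one_lt₀ hℓ1)
  have key : ∀ k : ℕ, n ≤ k → ∀ r : ℚ, ‖a - r‖ = (ℓ : ℝ) ^ (-k : ℤ) → ‖b - r‖ = ‖b - a‖ := by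
    intro k hk r hr
    have h1 : ‖a - r‖ < ‖b - a‖ := by
      rw [hr, zpow_neg, zpow_natCast, ← inv_pow]
      exact lt_of_le_of_lt (pow_le_pow_of_le_one (by positivity)
        (inv_lt_one_of_one_lt₀ hℓ1).le hk) hn
    have h2 : b - r = (b - a) + (a - r) := by ring
    rw [h2, Padic.add_eq_max_of_ne h1.ne', max_eq_left h1.le]
  obtain ⟨r₁, h₁⟩ := padic_near ℓ a n
  obtain ⟨r₂, h₂⟩ := padic_near ℓ a (n + 1)
  refine ⟨r₁, r₂, ?_, ?_⟩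
  · rw [norm_div, h₁, h₂, ← zpow_sub₀ hℓ.ne', ← zpow_neg_one]
    congr 1; push_cast; ring
  · rw [norm_div, key n le_rfl r₁ h₁, key (n + 1) (Nat.le_succ n) r₂ h₂, div_self hd.ne']

theorem padic_dvd (ℓ : ℕ) [Fact ℓ.Prime] {w x y : ℚ_[ℓ]} {s c : ℕ} (h : w ^ s * x ^ c = y)
    (hx : ‖x‖ = (ℓ : ℝ)⁻¹) (hy : ‖y‖ = 1) (hs : s ≠ 0) : s ∣ c := by
  have hℓ1 : (1 : ℝ) < ℓ := by exact_mod_cast (Fact.out : ℓ.Prime).one_lt
  have hℓ : (0 : ℝ) < ℓ := by linarith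
  have hw : w ≠ 0 := by
    rintro rfl
    rw [zero_pow hs, zero_mul] at h
    rw [← h, norm_zero] at hy
    exact zero_ne_one hy
  have h1 := congrArg norm h
  rw [norm_mul, norm_pow, norm_pow, hx, hy, Padic.norm_eq_zpow_neg_valuation hw, ← zpow_neg_one,
    ← zpow_natCast, ← zpow_natCast, ← zpow_mul, ← zpow_mul, ← zpow_add₀ hℓ.ne',
    zpow_eq_one_iff_right₀ hℓ.le hℓ1.ne'] at h1
  have : (s : ℤ) ∣ c := ⟨-w.valuation, by linarith⟩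
  exact_mod_cast this

theorem fix_conj {U : Subgroup (E ≃ₐ[F] E)} (hn : U.Normal) {x : E} (hx : Fix U x)
    (δ : E ≃ₐ[F] E) : Fix U (δ x) := by
  intro g hg
  have := hx _ (hn.conj_mem g hg δ⁻¹)
  rw [inv_inv, AlgEquiv.mul_apply, AlgEquiv.mul_apply] at this
  conv_rhs => rw [← this]
  rw [← AlgEquiv.mul_apply δ, mul_inv_cancel, AlgEquiv.one_apply]

theorem exists_emb (W : Subgroup (E ≃ₐ[F] E)) (hW : IsOpen (W : Set (E ≃ₐ[F] E))) :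
    ∃ (ℓ : ℕ) (_ : Fact ℓ.Prime), Nonempty (IntermediateField.fixedField W →+* ℚ_[ℓ]) := by
  obtain ⟨q₀, hq⟩ := emb W hW
  obtain ⟨ℓ, hℓ, A, φ, hA, hφ, hF, -⟩ := fd W W hW le_rfl
    (fun u hu w hw => W.mul_mem (W.mul_mem hu hw) (W.inv_mem hu)) W.one_mem q₀
  have : Fact ℓ.Prime := ⟨hA.1⟩
  exact ⟨ℓ, this, hq ℓ hℓ A φ hA hφ hF⟩

theorem kl1 (hE : IsSolvablyClosed E) {s : ℕ} (hs : s.Prime) (U U' : Subgroup (E ≃ₐ[F] E))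
    (hn : U.Normal) (hU' : IsOpen (U' : Set (E ≃ₐ[F] E))) (hle : U' ≤ U)
    (hμ : ∀ ζ : E, ζ ^ s = 1 → Fix U ζ) (δ : E ≃ₐ[F] E) (hδ : δ ∉ U) :
    ∃ ρ : (E ≃ₐ[F] E) → ZMod s, IsChar U ρ ∧ ∃ g ∈ U', ρ (δ * g * δ⁻¹) ≠ ρ g := by
  have : NeZero s := ⟨hs.ne_zero⟩
  have : CharZero E := charZero_of_injective_algebraMap (algebraMap F E).injective
  have hU : IsOpen (U : Set (E ≃ₐ[F] E)) := Subgroup.isOpen_mono hle hU'
  obtain ⟨θ, hθ, hθδ⟩ : ∃ θ, Fix U θ ∧ δ⁻¹ θ ≠ θ := by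
    by_contra! h
    exact hδ (by simpa using U.inv_mem (mem_of_fix U (U.isClosed_of_isOpen hU) δ⁻¹ h))
  obtain ⟨ℓ, _, ⟨e⟩⟩ := exists_emb U' hU'
  have mem : ∀ {x : E}, Fix U x → x ∈ IntermediateField.fixedField U' := fun hx =>
    (fix_iff_mem U' _).1 fun g hg => hx g (hle hg)
  let θ₀ : IntermediateField.fixedField U' := ⟨θ, mem hθ⟩
  let θ₁ : IntermediateField.fixedField U' := ⟨δ⁻¹ θ, mem (fix_conj hn hθ δ⁻¹)⟩
  have hab : e θ₀ ≠ e θ₁ := fun h => hθδ (congrArg Subtype.val (e.injective h)).symm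
  obtain ⟨r₁, r₂, h₀, h₁⟩ := padic_sep ℓ hab
  let X₀ : IntermediateField.fixedField U' := (θ₀ - r₂) / (θ₀ - r₁)
  let X₁ : IntermediateField.fixedField U' := (θ₁ - r₂) / (θ₁ - r₁)
  have e₀ : e X₀ = (e θ₀ - r₂) / (e θ₀ - r₁) := by simp [X₀]
  have e₁ : e X₁ = (e θ₁ - r₂) / (e θ₁ - r₁) := by simp [X₁]
  rw [← e₀] at h₀
  rw [← e₁] at h₁
  have hX₀ : (X₀ : E) = (θ - r₂) / (θ - r₁) := by simp [X₀, θ₀]
  have hX₁ : (X₁ : E) = δ⁻¹ (X₀ : E) := by rw [hX₀]; simp [X₁, θ₁]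
  have hx : Fix U (X₀ : E) := by
    intro g hg
    rw [hX₀]; simp [hθ g hg]
  have hx0 : (X₀ : E) ≠ 0 := by
    intro h
    have : X₀ = 0 := Subtype.ext h
    rw [this, map_zero, norm_zero] at h₀
    have hℓ : (0 : ℝ) < ℓ := by exact_mod_cast (Fact.out : ℓ.Prime).pos
    exact (inv_pos.2 hℓ).ne h₀
  obtain ⟨z, hz⟩ := sc_root hE hs.pos (X₀ : E)
  have hz0 : z ≠ 0 := by
    rintro rfl
    exact hx0 (by rw [← hz, zero_pow hs.ne_zero])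
  obtain ⟨ζ, hζ⟩ := sc_prim hE hs.pos
  obtain ⟨ρ, hρ, hρz⟩ := kummer_char U ζ hζ (hμ ζ hζ.pow_eq_one) z hz0 (hz ▸ hx)
  refine ⟨ρ, hρ, ?_⟩
  by_contra! hinv
  obtain ⟨c, -, hc⟩ := hζ.eq_pow_of_pow_eq_one (ξ := δ⁻¹ ζ)
    (by rw [← map_pow, hζ.pow_eq_one, map_one])
  have hζ0 : ζ ≠ 0 := hζ.ne_zero hs.ne_zero
  have hw : Fix U' (δ⁻¹ z / z ^ c) := by
    intro g hg
    have h1 := hρz _ (hn.conj_mem g (hle hg) δ)
    rw [hinv g hg] at h1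
    have h2 : g (δ⁻¹ z) = δ⁻¹ ((δ * g * δ⁻¹) z) := by
      rw [AlgEquiv.mul_apply, AlgEquiv.mul_apply, ← AlgEquiv.mul_apply δ⁻¹ δ, inv_mul_cancel,
        AlgEquiv.one_apply]
    rw [map_div₀, map_pow, h2, h1, hρz g (hle hg), map_mul, map_pow, ← hc, mul_pow, ← pow_mul,
      ← pow_mul, mul_comm c]
    field_simp
  let w : IntermediateField.fixedField U' := ⟨_, (fix_iff_mem U' _).1 hw⟩
  have hrel : w ^ s * X₀ ^ c = X₁ := by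
    apply Subtype.ext
    push_cast
    rw [hX₁, ← hz]
    simp only [w]
    rw [div_pow, map_pow, ← pow_mul, ← pow_mul, mul_comm c]
    field_simp
  have hdvd : s ∣ c := padic_dvd ℓ (w := e w) (by rw [← hrel]; simp) h₀ h₁ hs.ne_zero
  have h3 : δ⁻¹ ζ = 1 := by rw [← hc]; exact (hζ.pow_eq_one_iff_dvd c).2 hdvd
  exact hζ.ne_one hs.one_lt (δ⁻¹.injective (h3.trans (map_one _).symm))

end Crest.Agent.R18.GEN
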