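import Crest.Agent.R18.GEN.KL

/-! Row 18 block GEN: groups of characters; characters of a decomposition group. -/

set_option autoImplicit false
set_option linter.unusedSectionVars false
open scoped Pointwise NumberField
open IsDedekindDomain Crest.NumberTheoryR

namespace Crest.Agent.R18.GEN

variable {F E : Type*} [Field F] [NumberField F] [Field E] [Algebra F E] [IsGalois F E]

section
variable {G : Type*} [Group G] [TopologicalSpace G]

/-- the group of characters -/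
def chars (U : Subgroup G) (s : ℕ) : AddSubgroup (G → ZMod s) where
  carrier := {ρ | IsChar U ρ}
  zero_mem' := ⟨fun _ _ _ _ => by simp, continuousOn_const⟩
  add_mem' := fun {ρ ρ'} h h' => ⟨fun x hx y hy => by
    simp only [Pi.add_apply, h.1 x hx y hy, h'.1 x hx y hy]; ring, h.2.add h'.2⟩
  neg_mem' := fun {ρ} h => ⟨fun x hx y hy => by
    simp only [Pi.neg_apply, h.1 x hx y hy]; ring, h.2.neg⟩

theorem isChar_sum {U : Subgroup G} {s : ℕ} {ι : Type*} [Fintype ι] (ρ : ι → G → ZMod s)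
    (h : ∀ j, IsChar U (ρ j)) (a : ι → ZMod s) : IsChar U (fun g => ∑ j, a j * ρ j g) := by
  refine ⟨fun x hx y hy => ?_, continuousOn_finsetSum _ fun j _ => continuousOn_const.mul (h j).2⟩
  rw [← Finset.sum_add_distrib]
  exact Finset.sum_congr rfl fun j _ => by rw [(h j).1 x hx y hy, mul_add]

/-- characters taking equal values on related elements -/
def eqSub (U : Subgroup G) (s : ℕ) (R : G → G → Prop) : AddSubgroup (chars U s) where
  carrier := {ρ | ∀ x y, R x y → ρ.1 x = ρ.1 y}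
  zero_mem' := fun _ _ _ => rfl
  add_mem' := fun {ρ ρ'} h h' x y hxy => by
    simp only [AddSubgroup.coe_add, Pi.add_apply, h x y hxy, h' x y hxy]
  neg_mem' := fun {ρ} h x y hxy => by
    simp only [AddSubgroup.coe_neg, Pi.neg_apply, h x y hxy]

/-- conjugation acting on characters -/
def conjC [IsTopologicalGroup G] (U : Subgroup G) (hn : U.Normal) (s : ℕ) (b : G) :
    chars U s →+ chars U s where
  toFun ρ := ⟨fun g => ρ.1 (b * g * b⁻¹), fun x hx y hy => by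
      have := ρ.2.1 _ (hn.conj_mem x hx b) _ (hn.conj_mem y hy b)
      rw [← this]; group,
    ρ.2.2.comp (by fun_prop) fun g hg => hn.conj_mem g hg b⟩
  map_zero' := rfl
  map_add' _ _ := rfl

/-- evaluation at two points -/
def ev2 (U : Subgroup G) (s : ℕ) (x y : G) : chars U s →+ ZMod s × ZMod s where
  toFun ρ := (ρ.1 x, ρ.1 y)
  map_zero' := rfl
  map_add' _ _ := rfl

end

/-- characters of the inertia group are proportional -/
theorem inert_prop (hE : IsSolvablyClosed E) {s : ℕ} (hs : s.Prime) (U : Subgroup (E ≃ₐ[F] E))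
    (hU : IsOpen (U : Set (E ≃ₐ[F] E))) (hμ : ∀ ζ : E, ζ ^ s = 1 → Fix U ζ)
    {A : ValuationSubring E} {q : ℕ} (hA : Over A q) (hq : q ≠ s) :
    ∃ ρ₀ : (E ≃ₐ[F] E) → ZMod s, ∀ ρ : (E ≃ₐ[F] E) → ZMod s, IsChar U ρ →
      ∃ n : ZMod s, ∀ i ∈ U, Inert A i → ρ i = n * ρ₀ i := by
  have : NeZero s := ⟨hs.ne_zero⟩
  have := numberField_fixedField U hU
  have : CharZero E := charZero_of_injective_algebraMap (algebraMap F E).injective
  obtain ⟨𝔭, -, h𝔭⟩ := exists_prime_below (IntermediateField.fixedField U).val.toRingHom A hA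
  obtain ⟨π, hπ0, hπ⟩ := exists_ord_eq 𝔭 1
  obtain ⟨ζ, hζ⟩ := sc_prim hE hs.pos
  have hfζ := hμ ζ hζ.pow_eq_one
  have hζ0 : ζ ≠ 0 := hζ.ne_zero hs.ne_zero
  obtain ⟨z₀, hz₀⟩ := sc_root hE hs.pos (π : E)
  have hπE : (π : E) ≠ 0 := fun h => hπ0 (Subtype.ext h)
  have hz₀0 : z₀ ≠ 0 := by
    rintro rfl
    exact hπE (by rw [← hz₀, zero_pow hs.ne_zero])
  have hfπ : Fix U (π : E) := (fix_iff_mem U _).2 π.2
  obtain ⟨ρ₀, -, hρ₀⟩ := kummer_char U ζ hζ hfζ z₀ hz₀0 (hz₀ ▸ hfπ)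
  refine ⟨ρ₀, fun ρ hρ => ?_⟩
  obtain ⟨z, hz0, hzf, hz⟩ := kummer_surj U hU ζ hζ hfζ ρ hρ
  let x : IntermediateField.fixedField U := ⟨z ^ s, (fix_iff_mem U _).1 hzf⟩
  have hx0 : x ≠ 0 := fun h => pow_ne_zero s hz0 (congrArg Subtype.val h)
  set n := ord 𝔭 x with hn
  refine ⟨n, fun i hi hI => ?_⟩
  have hu0 : x * π ^ (-n) ≠ 0 := mul_ne_zero hx0 (zpow_ne_zero _ hπ0)
  have hu : 𝔭.valuation _ (x * π ^ (-n)) = 1 := by
    rw [← ord_eq_zero_iff 𝔭 hu0, ord_mul 𝔭 hx0 (zpow_ne_zero _ hπ0), ord_zpow, hπ, ← hn]; ring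
  have hpow : (z * z₀ ^ (-n)) ^ s = ((x * π ^ (-n) : IntermediateField.fixedField U) : E) := by
    have hc : ((x * π ^ (-n) : IntermediateField.fixedField U) : E) = z ^ s * (π : E) ^ (-n) := by
      have := map_zpow₀ (IntermediateField.fixedField U).val π (-n)
      rw [IntermediateField.coe_mul]
      exact congrArg (z ^ s * ·) this
    rw [hc, mul_pow, ← hz₀, ← zpow_natCast (z₀ ^ (-n)), ← zpow_natCast z₀, ← zpow_mul, ← zpow_mul,
      mul_comm (-n)]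
  have hv : A.valuation ((z * z₀ ^ (-n)) ^ s) = 1 := by
    rw [hpow]
    refine le_antisymm ?_ ?_
    · simpa using (h𝔭 (x * π ^ (-n)) 1).2 (by rw [hu, map_one])
    · simpa using (h𝔭 1 (x * π ^ (-n))).2 (by rw [hu, map_one])
  have hv1 : A.valuation (z * z₀ ^ (-n)) = 1 := by
    rw [map_pow] at hv
    exact (pow_eq_one_iff.1 hv).resolve_right hs.ne_zero
  have hqs : ¬ q ∣ s := fun h => hq ((Nat.prime_dvd_prime_iff_eq hA.1 hs).1 h)
  have hfix := hI.fix_root hA hqs hv1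
    (by rw [hpow]; exact (fix_iff_mem U _).2 (x * π ^ (-n)).2 i hi)
  rw [map_mul, map_zpow₀, hz i hi, hρ₀ i hi, mul_zpow] at hfix
  have h1 : ζ ^ (((ρ i).val : ℤ) - n * (ρ₀ i).val) = 1 := by
    have h2 : z * z₀ ^ (-n) ≠ 0 := mul_ne_zero hz0 (zpow_ne_zero _ hz₀0)
    apply mul_right_cancel₀ h2
    rw [one_mul]
    refine Eq.trans ?_ hfix
    rw [sub_eq_add_neg, zpow_add₀ hζ0, zpow_natCast, ← zpow_natCast ζ (ρ₀ i).val, ← zpow_mul,
      show -(n * ((ρ₀ i).val : ℤ)) = (ρ₀ i).val * (-n) by ring]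
    ring
  have h3 := (ZMod.intCast_zmod_eq_zero_iff_dvd _ s).2 ((hζ.zpow_eq_one_iff_dvd _).1 h1)
  push_cast at h3
  simp only [ZMod.natCast_val, ZMod.cast_id', id_eq] at h3
  linear_combination h3

/-- a character of `U` is killed on the decomposition group by two conditions -/
theorem loc2 (hE : IsSolvablyClosed E) {s : ℕ} (hs : s.Prime) (U : Subgroup (E ≃ₐ[F] E))
    (hU : IsOpen (U : Set (E ≃ₐ[F] E))) (hμ : ∀ ζ : E, ζ ^ s = 1 → Fix U ζ)
    {A : ValuationSubring E} {q : ℕ} (hA : Over A q) (hq : q ≠ s) :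
    ∃ σ i₀ : E ≃ₐ[F] E, ∀ ρ : (E ≃ₐ[F] E) → ZMod s, IsChar U ρ → ρ σ = 0 → ρ i₀ = 0 →
      ∀ g ∈ U, Stab A g → ρ g = 0 := by
  have : Fact s.Prime := ⟨hs⟩
  obtain ⟨ρ₀, hρ₀⟩ := inert_prop hE hs U hU hμ hA hq
  obtain ⟨σ, f, hσ⟩ := exists_minFrob U hU hA
  obtain ⟨i₀, hi₀⟩ : ∃ i₀ : E ≃ₐ[F] E, ∀ ρ : (E ≃ₐ[F] E) → ZMod s, IsChar U ρ → ρ i₀ = 0 →
      ∀ i ∈ U, Inert A i → ρ i = 0 := by
    by_cases h : ∃ i₀ ∈ U, Inert A i₀ ∧ ρ₀ i₀ ≠ 0
    · obtain ⟨i₀, h1, h2, h3⟩ := h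
      refine ⟨i₀, fun ρ hρ h0 i hi hI => ?_⟩
      obtain ⟨n, hn⟩ := hρ₀ ρ hρ
      rw [hn i₀ h1 h2] at h0
      rw [hn i hi hI, (mul_eq_zero.1 h0).resolve_right h3, zero_mul]
    · push Not at h
      refine ⟨1, fun ρ hρ _ i hi hI => ?_⟩
      obtain ⟨n, hn⟩ := hρ₀ ρ hρ
      rw [hn i hi hI, h i hi hI, mul_zero]
  refine ⟨σ, i₀, fun ρ hρ h1 h2 g hg hS => ?_⟩
  obtain ⟨K, hK⟩ := hρ.exists_ker
  have hKc := hρ.ker_closed (U.isClosed_of_isOpen hU) hK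
  have hsub : {x | ∃ a : ℕ, ∃ i ∈ U, Inert A i ∧ x = σ ^ a * i} ⊆ (K : Set (E ≃ₐ[F] E)) := by
    rintro _ ⟨a, i, hi, hI, rfl⟩
    exact K.mul_mem (K.pow_mem ((hK σ).2 ⟨hσ.1, h1⟩) a) ((hK i).2 ⟨hi, hi₀ ρ hρ h2 i hi hI⟩)
  exact ((hK g).1 (closure_minimal hsub hKc (dec4 hU hA hσ hg hS))).2

end Crest.Agent.R18.GEN
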